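import Vale.Agent.P224.R2.H389.Sub2
import Vale.Agent.P224.R2.H389.CA.Rows
import Vale.Agent.P224.R2.H389.CA.DG0
import Vale.Agent.P224.R2.H389.CA.DG1
import Vale.Agent.P224.R2.H389.CA.DG2
import Vale.Agent.P224.R2.H389.CA.DG3
import Vale.Agent.P224.R2.H389.CA.DG4
import Vale.Agent.P224.R2.H389.CA.DG5
import Vale.Agent.P224.R2.H389.CA.DG6
import Vale.Agent.P224.R2.H389.CA.DG7

/-!
The identity of the certificate and the pointwise inequality (nu in [1/8, 2/5]).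
-/

namespace Vale.Agent.P224.R2.H389.CA

open Vale.Agent.P224.UE Vale.Agent.P224.POS Vale.Agent.P224.PU Vale.Agent.P224.UG Vale.Agent.P224.R2.H389
open scoped RealInnerProductSpace

noncomputable section

/-- the blocks with their factors and expansions -/
def BK : List BS := [
  (0, ⟨els0, G0⟩, S0),
  (0, ⟨els1, G1⟩, S1),
  (0, ⟨els2, G2⟩, S2),
  (0, ⟨els3, G3⟩, S3),
  (3, ⟨els4, G4⟩, S4),
  (3, ⟨els5, G5⟩, S5),
  (3, ⟨els6, G6⟩, S6),
  (3, ⟨els7, G7⟩, S7)]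

/-- the integers replacing `k, P₊, P₋, g` -/
def Ms : List Nat := [
  Nat.pow 2 49,
  Nat.pow 2 526,
  Nat.pow 2 3581,
  Nat.pow 2 21913]

set_option maxRecDepth 100000 in
/-- **The identity**, checked by the kernel. -/
theorem idF : chk Ms (PE.sub (lhsF rows) (rhsS BK)) = true := by
  decide +kernel

lemma hBK : ∀ b ∈ BK, okB b := by
  intro b hb
  unfold BK at hb
  rcases List.mem_cons.1 hb with rfl | hb
  · exact ok0
  rcases List.mem_cons.1 hb with rfl | hb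
  · exact ok1
  rcases List.mem_cons.1 hb with rfl | hb
  · exact ok2
  rcases List.mem_cons.1 hb with rfl | hb
  · exact ok3
  rcases List.mem_cons.1 hb with rfl | hb
  · exact ok4
  rcases List.mem_cons.1 hb with rfl | hb
  · exact ok5
  rcases List.mem_cons.1 hb with rfl | hb
  · exact ok6
  rcases List.mem_cons.1 hb with rfl | hb
  · exact ok7
  · exact absurd hb List.not_mem_nil

/-- **The pointwise inequality.** -/
theorem hpos {T : ℝ} (hT0 : 0 < T) (hT1 : T < 1) {E : Type*} [NormedAddCommGroup E]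
    [InnerProductSpace ℝ E] {N w e : E} (he : ‖e‖ = 1) (hN : ‖N‖ = 1) (hw : ‖w‖ = 1)
    (P Q Z Xi : ℝ) :
    Dsum (certK D rows) T ![P, Q, ⟪N, w⟫, ⟪N, e⟫, ⟪w, e⟫, Z, Xi, ⟪e, e⟫]
      + Dsum (certK D rows) T (sw8 T ![P, Q, ⟪N, w⟫, ⟪N, e⟫, ⟪w, e⟫, Z, Xi, ⟪e, e⟫]) ≤ 0 :=
  hpos_of_chkS D_pos rfl idF hBK hT0 hT1 he hN hw P Q Z Xi

end

end Vale.Agent.P224.R2.H389.CA
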